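import Vale.Agent.Lib.P078.Masa

/-!
P078: the exact so-paving threshold of the diffuse maximal abelian subalgebra of all bounded
operators on square integrable functions on the unit interval.
-/

namespace Vale.Agent.Results.P078.DiffuseMasaThreshold

open Vale.Agent.Lib.P078 MeasureTheory
open scoped ENNReal

theorem result (μ : Measure ℝ) (hμ : μ = volume.restrict (Set.Ico 0 1))
    (A : Set (Lp ℂ 2 μ →L[ℂ] Lp ℂ 2 μ))
    (hA : A = Set.range ((ContinuousLinearMap.mul ℂ ℂ).holderL μ ∞ 2 2)) :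
    IsMASA Set.univ A ∧
    (∀ (ε : ℝ) (r : ℕ), 1 < ε * r → ∀ x : Lp ℂ 2 μ →L[ℂ] Lp ℂ 2 μ, IsSelfAdjoint x →
      SoPavable Set.univ A x ε r) ∧
    (∀ (ε : ℝ) (r : ℕ), 1 ≤ r → ε * r < 1 → ∃ x : Lp ℂ 2 μ →L[ℂ] Lp ℂ 2 μ, IsSelfAdjoint x ∧
      ¬ SoPavable Set.univ A x ε r) ∧
    (∀ ε : ℝ, 0 < ε →
      ((⌈1 / ε⌉₊ : ℕ) : ℕ∞) ≤ pavingNumber Set.univ A ε ∧
      pavingNumber Set.univ A ε ≤ ((⌊1 / ε⌋₊ + 1 : ℕ) : ℕ∞)) := by
  subst hμ
  subst hA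
  exact ⟨isMASA_multAlg,
    fun _ _ h _ hx => upper_model hx h,
    fun _ _ hr h => ⟨_, reflOp_isSelfAdjoint norm_ind_zero_one, lower_model hr h⟩,
    fun _ hε => ⟨le_pavingNumber hε, pavingNumber_le hε⟩⟩

end Vale.Agent.Results.P078.DiffuseMasaThreshold
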